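import Mathlib

/-!
# The parity of the corners of a quadrilateral with disjoint opposite sides
-/

namespace Vale.Agent.P305.H677

open Set Filter Topology

/-- The determinant of two vectors of the plane. -/
def det (P Q : ℝ × ℝ) : ℝ := P.1 * Q.2 - P.2 * Q.1

/-- `d` is positive for the lexicographic order. -/
def up (d : ℝ × ℝ) : Prop := 0 < d.1 ∨ (d.1 = 0 ∧ 0 < d.2)

open scoped Classical in
/-- The parity count at a corner. -/
noncomputable def hh (P Q : ℝ × ℝ) : ℕ :=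
  (if up P ∧ up Q ∧ 0 < det P Q then 1 else 0) +
    (if up (-P) ∧ up (-Q) ∧ det P Q < 0 then 1 else 0)

/-- The orientation of a triangle. -/
def ori (p q r : ℝ × ℝ) : ℝ := det (q - p) (r - p)

theorem not_up_neg {d : ℝ × ℝ} (hd : up d) : ¬ up (-d) := by
  rcases hd with hd | ⟨hd, hd'⟩ <;> rintro (he | ⟨he, he'⟩) <;>
    simp only [Prod.fst_neg, Prod.snd_neg] at * <;> linarith

theorem up_total {d : ℝ × ℝ} (hd : d ≠ 0) : up d ∨ up (-d) := by
  rcases lt_trichotomy d.1 0 with h | h | h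
  · right; left; simpa using h
  · rcases lt_trichotomy d.2 0 with h' | h' | h'
    · right; right; simp only [Prod.fst_neg, Prod.snd_neg]; exact ⟨by linarith, by linarith⟩
    · exact absurd (Prod.ext h h') hd
    · left; right; exact ⟨h, h'⟩
  · left; left; exact h

/-- A linear function which agrees with the lexicographic order on finitely many vectors. -/
def xx (e : ℝ) (p : ℝ × ℝ) : ℝ := p.1 + e * p.2

theorem eventually_up {d : ℝ × ℝ} (hd : up d) : ∀ᶠ e in 𝓝[>] (0 : ℝ), 0 < xx e d := by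
  rcases hd with hd | ⟨hd, hd'⟩
  · have h1 : Tendsto (fun e : ℝ => xx e d) (𝓝 0) (𝓝 (xx 0 d)) := by
      have : Continuous fun e : ℝ => xx e d := by unfold xx; fun_prop
      exact this.tendsto 0
    have h2 : 0 < xx 0 d := by simpa [xx] using hd
    exact (h1.eventually (lt_mem_nhds h2)).filter_mono nhdsWithin_le_nhds
  · filter_upwards [self_mem_nhdsWithin] with e he
    simp only [xx, hd, zero_add]
    exact mul_pos he hd'

section Seg

variable {e : ℝ} {p q r s : ℝ × ℝ}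

theorem mem_seg (hpq : xx e p < xx e q) (h0 : ori p q r = 0) (h1 : xx e p ≤ xx e r)
    (h2 : xx e r ≤ xx e q) : r ∈ segment ℝ p q := by
  have ha : 0 < xx e q - xx e p := by linarith
  refine ⟨1 - (xx e r - xx e p) / (xx e q - xx e p), (xx e r - xx e p) / (xx e q - xx e p), ?_,
    div_nonneg (by linarith) ha.le, by ring, ?_⟩
  · rw [sub_nonneg, div_le_one ha]
    linarith
  · simp only [ori, det, Prod.fst_sub, Prod.snd_sub] at h0
    simp only [xx] at *
    refine Prod.ext ?_ ?_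
    · simp only [Prod.fst_add, Prod.smul_fst, smul_eq_mul]
      field_simp
      linear_combination e * h0
    · simp only [Prod.snd_add, Prod.smul_snd, smul_eq_mul]
      field_simp
      linear_combination -h0

theorem ori_comb (p q r s : ℝ × ℝ) (t : ℝ) :
    ori p q ((1 - t) • r + t • s) = (1 - t) * ori p q r + t * ori p q s := by
  simp only [ori, det, Prod.fst_sub, Prod.snd_sub, Prod.fst_add, Prod.snd_add, Prod.smul_fst,
    Prod.smul_snd, smul_eq_mul]
  ring

theorem xx_comb (e : ℝ) (r s : ℝ × ℝ) (t : ℝ) :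
    xx e ((1 - t) • r + t • s) = (1 - t) * xx e r + t * xx e s := by
  simp only [xx, Prod.fst_add, Prod.snd_add, Prod.smul_fst, Prod.smul_snd, smul_eq_mul]
  ring

theorem comb_mem {t : ℝ} (h0 : 0 ≤ t) (h1 : t ≤ 1) (r s : ℝ × ℝ) :
    (1 - t) • r + t • s ∈ segment ℝ r s :=
  ⟨1 - t, t, by linarith, h0, by ring, rfl⟩

/-- Nested segments. -/
theorem nested (h1 : xx e p < xx e r) (h2 : xx e p < xx e s) (h3 : xx e r < xx e q)
    (h4 : xx e s < xx e q) (hd : Disjoint (segment ℝ p q) (segment ℝ r s)) :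
    0 < ori p q r * ori p q s := by
  by_contra hcon
  push Not at hcon
  have hpq : xx e p < xx e q := h1.trans h3
  obtain ⟨A, hA⟩ : ∃ A, A = ori p q r := ⟨_, rfl⟩
  obtain ⟨B, hB⟩ : ∃ B, B = ori p q s := ⟨_, rfl⟩
  rw [← hA, ← hB] at hcon
  by_cases hAB : A = B
  · have h0 : ori p q r = 0 := by
      rw [← hA]
      rw [← hAB] at hcon
      nlinarith [mul_self_nonneg A]
    exact disjoint_left.1 hd (mem_seg hpq h0 h1.le h3.le) (left_mem_segment ℝ r s)
  · have hne : A - B ≠ 0 := sub_ne_zero.2 hAB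
    have hsq : 0 < (A - B) ^ 2 := by positivity
    obtain ⟨t, ht⟩ : ∃ t, t = A / (A - B) := ⟨_, rfl⟩
    have htm : t * (A - B) = A := by rw [ht]; field_simp
    have ht0 : 0 ≤ t := by
      have h5 : t * (A - B) ^ 2 = A ^ 2 - A * B := by linear_combination (A - B) * htm
      by_contra h6
      push Not at h6
      nlinarith [sq_nonneg A, mul_pos_of_neg_of_neg h6 (neg_lt_zero.2 hsq)]
    have ht1 : t ≤ 1 := by
      have h5 : (1 - t) * (A - B) ^ 2 = B ^ 2 - A * B := by linear_combination (B - A) * htm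
      by_contra h6
      push Not at h6
      nlinarith [sq_nonneg B, mul_pos_of_neg_of_neg (sub_neg.2 h6) (neg_lt_zero.2 hsq)]
    have hz0 : ori p q ((1 - t) • r + t • s) = 0 := by
      rw [ori_comb, ← hA, ← hB]
      linear_combination -htm
    refine disjoint_left.1 hd (mem_seg hpq hz0 ?_ ?_) (comb_mem ht0 ht1 r s)
    · rw [xx_comb]
      nlinarith [mul_nonneg ht0 (sub_nonneg.2 h2.le),
        mul_nonneg (sub_nonneg.2 ht1) (sub_nonneg.2 h1.le)]
    · rw [xx_comb]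
      nlinarith [mul_nonneg ht0 (sub_nonneg.2 h4.le),
        mul_nonneg (sub_nonneg.2 ht1) (sub_nonneg.2 h3.le)]

/-- Staggered segments. -/
theorem staggered (h1 : xx e p < xx e r) (h2 : xx e r < xx e q) (h3 : xx e q < xx e s)
    (hd : Disjoint (segment ℝ p q) (segment ℝ r s)) :
    ori p q r * ori r s q < 0 := by
  by_contra hcon
  push Not at hcon
  have hpq : xx e p < xx e q := h1.trans h2
  by_cases hA0 : ori p q r = 0
  · exact disjoint_left.1 hd (mem_seg hpq hA0 h1.le h2.le) (left_mem_segment ℝ r s)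
  by_cases hB0 : ori r s q = 0
  · exact disjoint_left.1 hd (right_mem_segment ℝ p q) (mem_seg (h2.trans h3) hB0 h2.le h3.le)
  -- `A = det(a, c)`, `B = det (b, a - c)`, `D = det (a, b)`
  obtain ⟨A, hA⟩ : ∃ A, A = ori p q r := ⟨_, rfl⟩
  obtain ⟨B, hB⟩ : ∃ B, B = ori r s q := ⟨_, rfl⟩
  obtain ⟨D, hD⟩ : ∃ D, D = det (q - p) (s - r) := ⟨_, rfl⟩
  rw [← hA, ← hB] at hcon
  rw [← hA] at hA0
  rw [← hB] at hB0
  have hAB : 0 < A * B := lt_of_le_of_ne hcon (Ne.symm (mul_ne_zero hA0 hB0))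
  have hid : (xx e q - xx e r) * D = -((xx e s - xx e r) * A + (xx e q - xx e p) * B) := by
    rw [hA, hB, hD]
    simp only [xx, ori, det, Prod.fst_sub, Prod.snd_sub]
    ring
  have hx1 : 0 < xx e q - xx e r := by linarith
  have hx2 : 0 < xx e s - xx e r := by linarith
  have hx3 : 0 < xx e q - xx e p := by linarith
  have key : ∃ l m : ℝ, 0 ≤ l ∧ l ≤ 1 ∧ 0 ≤ m ∧ m ≤ 1 ∧ l * D = D + B ∧ m * D = -A := by
    rcases pos_and_pos_or_neg_and_neg_of_mul_pos hAB with ⟨hA1, hB1⟩ | ⟨hA1, hB1⟩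
    · have hD1 : D < 0 := by
        by_contra h
        push Not at h
        nlinarith [mul_nonneg hx1.le h, mul_pos hx2 hA1, mul_pos hx3 hB1]
      have hBD : B ≤ -D := by
        by_contra h
        push Not at h
        nlinarith [mul_pos hx1 (sub_pos.2 h), mul_pos hx2 hA1, mul_pos (sub_pos.2 h1) hB1]
      have hAD : A ≤ -D := by
        by_contra h
        push Not at h
        nlinarith [mul_pos hx1 (sub_pos.2 h), mul_pos (sub_pos.2 h3) hA1, mul_pos hx3 hB1]
      refine ⟨(D + B) / D, -A / D, div_nonneg_of_nonpos (by linarith) hD1.le, ?_,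
        div_nonneg_of_nonpos (by linarith) hD1.le, ?_, ?_, ?_⟩
      · rw [div_le_one_of_neg hD1]; linarith
      · rw [div_le_one_of_neg hD1]; linarith
      · exact div_mul_cancel₀ _ hD1.ne
      · exact div_mul_cancel₀ _ hD1.ne
    · have hD1 : 0 < D := by
        by_contra h
        push Not at h
        nlinarith [mul_nonneg hx1.le (neg_nonneg.2 h), mul_pos hx2 (neg_pos.2 hA1),
          mul_pos hx3 (neg_pos.2 hB1)]
      have hBD : -B ≤ D := by
        by_contra h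
        push Not at h
        nlinarith [mul_pos hx1 (sub_pos.2 h), mul_pos hx2 (neg_pos.2 hA1),
          mul_pos (sub_pos.2 h1) (neg_pos.2 hB1)]
      have hAD : -A ≤ D := by
        by_contra h
        push Not at h
        nlinarith [mul_pos hx1 (sub_pos.2 h), mul_pos (sub_pos.2 h3) (neg_pos.2 hA1),
          mul_pos hx3 (neg_pos.2 hB1)]
      refine ⟨(D + B) / D, -A / D, div_nonneg (by linarith) hD1.le, ?_,
        div_nonneg (by linarith) hD1.le, ?_, ?_, ?_⟩
      · rw [div_le_one hD1]; linarith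
      · rw [div_le_one hD1]; linarith
      · exact div_mul_cancel₀ _ hD1.ne'
      · exact div_mul_cancel₀ _ hD1.ne'
  obtain ⟨l, m, hl0, hl1, hm0, hm1, hl, hm⟩ := key
  have hDne : D ≠ 0 := by
    rintro rfl
    apply hA0
    linarith
  refine disjoint_left.1 hd (comb_mem hl0 hl1 p q) ?_
  have : (1 - l) • p + l • q = (1 - m) • r + m • s := by
    have e1 : D * (((1 - l) • p + l • q).1 - ((1 - m) • r + m • s).1) = 0 := by
      simp only [Prod.fst_add, Prod.smul_fst, smul_eq_mul]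
      have : D * ((1 - l) * p.1 + l * q.1 - ((1 - m) * r.1 + m * s.1)) =
          D * (p.1 - r.1) + (l * D) * (q.1 - p.1) - (m * D) * (s.1 - r.1) := by ring
      rw [this, hl, hm, hA, hB, hD]
      simp only [ori, det, Prod.fst_sub, Prod.snd_sub]
      ring
    have e2 : D * (((1 - l) • p + l • q).2 - ((1 - m) • r + m • s).2) = 0 := by
      simp only [Prod.snd_add, Prod.smul_snd, smul_eq_mul]
      have : D * ((1 - l) * p.2 + l * q.2 - ((1 - m) * r.2 + m * s.2)) =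
          D * (p.2 - r.2) + (l * D) * (q.2 - p.2) - (m * D) * (s.2 - r.2) := by ring
      rw [this, hl, hm, hA, hB, hD]
      simp only [ori, det, Prod.fst_sub, Prod.snd_sub]
      ring
    refine Prod.ext ?_ ?_
    · exact sub_eq_zero.1 ((mul_eq_zero.1 e1).resolve_left hDne)
    · exact sub_eq_zero.1 ((mul_eq_zero.1 e2).resolve_left hDne)
  rw [this]
  exact comb_mem hm0 hm1 r s

end Seg

open scoped Classical in
/-- The parity count at a corner for the order given by `xx e`. -/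
noncomputable def gg (e : ℝ) (p q r : ℝ × ℝ) : ℕ :=
  (if xx e p < xx e q ∧ xx e p < xx e r ∧ 0 < ori p q r then 1 else 0) +
    (if xx e q < xx e p ∧ xx e r < xx e p ∧ ori p q r < 0 then 1 else 0)

theorem core {e : ℝ} {p1 p2 p3 p4 : ℝ × ℝ} (h12 : xx e p1 < xx e p2) (h13 : xx e p1 < xx e p3)
    (h14 : xx e p1 < xx e p4) (h23 : xx e p2 ≠ xx e p3) (h34 : xx e p3 ≠ xx e p4)
    (h24 : xx e p2 ≠ xx e p4)
    (hd1 : Disjoint (segment ℝ p1 p2) (segment ℝ p3 p4))
    (hd2 : Disjoint (segment ℝ p2 p3) (segment ℝ p4 p1)) :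
    Odd (gg e p1 p2 p4 + gg e p2 p3 p1 + gg e p3 p4 p2 + gg e p4 p1 p3) := by
  have hd3 : Disjoint (segment ℝ p1 p4) (segment ℝ p2 p3) := by
    rw [segment_symm ℝ p1 p4]; exact hd2.symm
  have hd4 : Disjoint (segment ℝ p1 p4) (segment ℝ p3 p2) := by
    rw [segment_symm ℝ p3 p2]; exact hd3
  have hd5 : Disjoint (segment ℝ p1 p2) (segment ℝ p4 p3) := by
    rw [segment_symm ℝ p4 p3]; exact hd1
  obtain ⟨o1, ho1⟩ : ∃ o1, o1 = ori p2 p3 p4 := ⟨_, rfl⟩
  obtain ⟨o2, ho2⟩ : ∃ o2, o2 = ori p1 p3 p4 := ⟨_, rfl⟩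
  obtain ⟨o3, ho3⟩ : ∃ o3, o3 = ori p1 p2 p4 := ⟨_, rfl⟩
  obtain ⟨o4, ho4⟩ : ∃ o4, o4 = ori p1 p2 p3 := ⟨_, rfl⟩
  have a231 : ori p2 p3 p1 = o4 := by
    rw [ho4]; simp only [ori, det, Prod.fst_sub, Prod.snd_sub]; ring
  have a342 : ori p3 p4 p2 = o1 := by
    rw [ho1]; simp only [ori, det, Prod.fst_sub, Prod.snd_sub]; ring
  have a413 : ori p4 p1 p3 = o2 := by
    rw [ho2]; simp only [ori, det, Prod.fst_sub, Prod.snd_sub]; ring
  have a142 : ori p1 p4 p2 = -o3 := by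
    rw [ho3]; simp only [ori, det, Prod.fst_sub, Prod.snd_sub]; ring
  have a143 : ori p1 p4 p3 = -o2 := by
    rw [ho2]; simp only [ori, det, Prod.fst_sub, Prod.snd_sub]; ring
  have a324 : ori p3 p2 p4 = -o1 := by
    rw [ho1]; simp only [ori, det, Prod.fst_sub, Prod.snd_sub]; ring
  have a432 : ori p4 p3 p2 = -o1 := by
    rw [ho1]; simp only [ori, det, Prod.fst_sub, Prod.snd_sub]; ring
  simp only [gg, a231, a342, a413, ← ho3]
  rcases lt_or_gt_of_ne h23 with k23 | k23 <;> rcases lt_or_gt_of_ne h34 with k34 | k34 <;>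
    rcases lt_or_gt_of_ne h24 with k24 | k24
  · -- 1 < 2 < 3 < 4
    have f := nested h12 h13 k24 k34 hd3
    rw [a142, a143, neg_mul_neg] at f
    clear ho1 ho2 ho3 ho4
    rcases pos_and_pos_or_neg_and_neg_of_mul_pos f with ⟨f1, f2⟩ | ⟨f1, f2⟩ <;>
      simp [h12, h14, k23, k34, f1, f2, h12.not_gt, h14.not_gt, k23.not_gt, k34.not_gt,
        f1.not_gt, f2.not_gt]
  · linarith
  · -- 1 < 2 < 4 < 3
    have f := staggered h12 k24 k34 hd3
    rw [a142, ← ho1] at f
    clear ho1 ho2 ho3 ho4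
    have f' : 0 < o3 * o1 := by linarith
    rcases pos_and_pos_or_neg_and_neg_of_mul_pos f' with ⟨f1, f2⟩ | ⟨f1, f2⟩ <;>
      simp [h12, h14, k23, k34, f1, f2, h12.not_gt, h14.not_gt, k23.not_gt, k34.not_gt,
        f1.not_gt, f2.not_gt]
  · -- 1 < 4 < 2 < 3
    have f := staggered h14 k24 k23 hd5
    rw [← ho3, a432] at f
    clear ho1 ho2 ho3 ho4
    have f' : 0 < o3 * o1 := by linarith
    rcases pos_and_pos_or_neg_and_neg_of_mul_pos f' with ⟨f1, f2⟩ | ⟨f1, f2⟩ <;>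
      simp [h12, h14, k23, k34, f1, f2, h12.not_gt, h14.not_gt, k23.not_gt, k34.not_gt,
        f1.not_gt, f2.not_gt]
  · -- 1 < 3 < 2 < 4
    have f := nested h12 h13 k24 k34 hd3
    rw [a142, a143, neg_mul_neg] at f
    have g := staggered h13 k23 k24 hd1
    rw [← ho4, a342] at g
    clear ho1 ho2 ho3 ho4
    rcases pos_and_pos_or_neg_and_neg_of_mul_pos f with ⟨f1, f2⟩ | ⟨f1, f2⟩ <;>
      rcases mul_neg_iff.1 g with ⟨g1, g2⟩ | ⟨g1, g2⟩ <;>
      simp [h12, h14, k23, k34, f1, f2, g1, g2, h12.not_gt, h14.not_gt, k23.not_gt,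
        k34.not_gt, f1.not_gt, f2.not_gt, g1.not_gt, g2.not_gt, Nat.odd_iff]
  · -- 1 < 3 < 4 < 2
    have f := nested h13 h14 k23 k24 hd1
    rw [← ho4, ← ho3] at f
    have g := staggered h13 k34 k24 hd4
    rw [a143, a324, neg_mul_neg] at g
    clear ho1 ho2 ho3 ho4
    rcases pos_and_pos_or_neg_and_neg_of_mul_pos f with ⟨f1, f2⟩ | ⟨f1, f2⟩ <;>
      rcases mul_neg_iff.1 g with ⟨g1, g2⟩ | ⟨g1, g2⟩ <;>
      simp [h12, h14, k23, k34, f1, f2, g1, g2, h12.not_gt, h14.not_gt, k23.not_gt,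
        k34.not_gt, f1.not_gt, f2.not_gt, g1.not_gt, g2.not_gt, Nat.odd_iff]
  · linarith
  · -- 1 < 4 < 3 < 2
    have f := nested h13 h14 k23 k24 hd1
    rw [← ho4, ← ho3] at f
    clear ho1 ho2 ho3 ho4
    rcases pos_and_pos_or_neg_and_neg_of_mul_pos f with ⟨f1, f2⟩ | ⟨f1, f2⟩ <;>
      simp [h12, h14, k23, k34, f1, f2, h12.not_gt, h14.not_gt, k23.not_gt, k34.not_gt,
        f1.not_gt, f2.not_gt]

/-- The general case: no order of the four points is assumed. -/
theorem core' {e : ℝ} {p1 p2 p3 p4 : ℝ × ℝ} (h12 : xx e p1 ≠ xx e p2) (h13 : xx e p1 ≠ xx e p3)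
    (h14 : xx e p1 ≠ xx e p4) (h23 : xx e p2 ≠ xx e p3) (h34 : xx e p3 ≠ xx e p4)
    (h24 : xx e p2 ≠ xx e p4)
    (hd1 : Disjoint (segment ℝ p1 p2) (segment ℝ p3 p4))
    (hd2 : Disjoint (segment ℝ p2 p3) (segment ℝ p4 p1)) :
    Odd (gg e p1 p2 p4 + gg e p2 p3 p1 + gg e p3 p4 p2 + gg e p4 p1 p3) := by
  by_cases m1 : xx e p1 < xx e p2 ∧ xx e p1 < xx e p3 ∧ xx e p1 < xx e p4
  · exact core m1.1 m1.2.1 m1.2.2 h23 h34 h24 hd1 hd2
  by_cases m2 : xx e p2 < xx e p3 ∧ xx e p2 < xx e p4 ∧ xx e p2 < xx e p1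
  · have := core m2.1 m2.2.1 m2.2.2 h34 h14.symm h13.symm hd2 hd1.symm
    rw [show gg e p1 p2 p4 + gg e p2 p3 p1 + gg e p3 p4 p2 + gg e p4 p1 p3 =
      gg e p2 p3 p1 + gg e p3 p4 p2 + gg e p4 p1 p3 + gg e p1 p2 p4 by ring]
    exact this
  by_cases m3 : xx e p3 < xx e p4 ∧ xx e p3 < xx e p1 ∧ xx e p3 < xx e p2
  · have := core m3.1 m3.2.1 m3.2.2 h14.symm h12 h24.symm hd1.symm hd2.symm
    rw [show gg e p1 p2 p4 + gg e p2 p3 p1 + gg e p3 p4 p2 + gg e p4 p1 p3 =
      gg e p3 p4 p2 + gg e p4 p1 p3 + gg e p1 p2 p4 + gg e p2 p3 p1 by ring]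
    exact this
  by_cases m4 : xx e p4 < xx e p1 ∧ xx e p4 < xx e p2 ∧ xx e p4 < xx e p3
  · have := core m4.1 m4.2.1 m4.2.2 h12 h23 h13 hd2.symm hd1
    rw [show gg e p1 p2 p4 + gg e p2 p3 p1 + gg e p3 p4 p2 + gg e p4 p1 p3 =
      gg e p4 p1 p3 + gg e p1 p2 p4 + gg e p2 p3 p1 + gg e p3 p4 p2 by ring]
    exact this
  exfalso
  rcases lt_or_gt_of_ne h12 with k12 | k12 <;> rcases lt_or_gt_of_ne h13 with k13 | k13 <;>
    rcases lt_or_gt_of_ne h14 with k14 | k14 <;> rcases lt_or_gt_of_ne h23 with k23 | k23 <;>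
    rcases lt_or_gt_of_ne h34 with k34 | k34 <;> rcases lt_or_gt_of_ne h24 with k24 | k24 <;>
    first
      | exact m1 ⟨k12, k13, k14⟩
      | exact m2 ⟨k23, k24, k12⟩
      | exact m3 ⟨k34, k13, k23⟩
      | exact m4 ⟨k14, k24, k34⟩
      | linarith

theorem hh_eq_gg {e : ℝ} {p q r : ℝ × ℝ} (h1 : up (q - p) ↔ xx e p < xx e q)
    (h2 : up (r - p) ↔ xx e p < xx e r) (h3 : up (p - q) ↔ xx e q < xx e p)
    (h4 : up (p - r) ↔ xx e r < xx e p) : hh (q - p) (r - p) = gg e p q r := by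
  simp only [hh, gg, neg_sub, h1, h2, h3, h4, ori]
  congr

theorem eventually_iff {p q : ℝ × ℝ} (hpq : p ≠ q) :
    ∀ᶠ e in 𝓝[>] (0 : ℝ), (up (q - p) ↔ xx e p < xx e q) ∧ (up (p - q) ↔ xx e q < xx e p) ∧
      xx e p ≠ xx e q := by
  have hsub : ∀ (e : ℝ) (a b : ℝ × ℝ), xx e (a - b) = xx e a - xx e b := by
    intro e a b
    simp only [xx, Prod.fst_sub, Prod.snd_sub]
    ring
  rcases up_total (sub_ne_zero.2 hpq.symm) with h | h
  · filter_upwards [eventually_up h] with e he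
    rw [hsub] at he
    have h' : ¬ up (p - q) := by
      have := not_up_neg h
      rwa [neg_sub] at this
    refine ⟨⟨fun _ => by linarith, fun _ => h⟩, ⟨fun h5 => absurd h5 h', fun h5 => ?_⟩, ?_⟩
    · exfalso; linarith
    · intro h5; linarith
  · filter_upwards [eventually_up h] with e he
    rw [neg_sub] at h he
    rw [hsub] at he
    have h' : ¬ up (q - p) := by
      have := not_up_neg h
      rwa [neg_sub] at this
    refine ⟨⟨fun h5 => absurd h5 h', fun h5 => ?_⟩, ⟨fun _ => by linarith, fun _ => h⟩, ?_⟩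
    · exfalso; linarith
    · intro h5; linarith

/-- **The parity lemma.** For a quadrilateral with disjoint opposite sides, the number of corners
counted by `hh` is odd. -/
theorem L1 {p1 p2 p3 p4 : ℝ × ℝ}
    (hd1 : Disjoint (segment ℝ p1 p2) (segment ℝ p3 p4))
    (hd2 : Disjoint (segment ℝ p2 p3) (segment ℝ p4 p1)) :
    Odd (hh (p2 - p1) (p4 - p1) + hh (p3 - p2) (p1 - p2) + hh (p4 - p3) (p2 - p3)
      + hh (p1 - p4) (p3 - p4)) := by
  have n12 : p1 ≠ p2 := by
    rintro rfl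
    exact disjoint_left.1 hd2 (left_mem_segment ℝ p1 p3) (right_mem_segment ℝ p4 p1)
  have n13 : p1 ≠ p3 := by
    rintro rfl
    exact disjoint_left.1 hd1 (left_mem_segment ℝ p1 p2) (left_mem_segment ℝ p1 p4)
  have n14 : p1 ≠ p4 := by
    rintro rfl
    exact disjoint_left.1 hd1 (left_mem_segment ℝ p1 p2) (right_mem_segment ℝ p3 p1)
  have n23 : p2 ≠ p3 := by
    rintro rfl
    exact disjoint_left.1 hd1 (right_mem_segment ℝ p1 p2) (left_mem_segment ℝ p2 p4)
  have n24 : p2 ≠ p4 := by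
    rintro rfl
    exact disjoint_left.1 hd1 (right_mem_segment ℝ p1 p2) (right_mem_segment ℝ p3 p2)
  have n34 : p3 ≠ p4 := by
    rintro rfl
    exact disjoint_left.1 hd2 (right_mem_segment ℝ p2 p3) (left_mem_segment ℝ p3 p1)
  obtain ⟨e, e12, e13, e14, e23, e24, e34⟩ := ((eventually_iff n12).and
    ((eventually_iff n13).and ((eventually_iff n14).and ((eventually_iff n23).and
    ((eventually_iff n24).and (eventually_iff n34)))))).exists
  rw [hh_eq_gg e12.1 e14.1 e12.2.1 e14.2.1, hh_eq_gg e23.1 e12.2.1 e23.2.1 e12.1,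
    hh_eq_gg e34.1 e23.2.1 e34.2.1 e23.1, hh_eq_gg e14.2.1 e34.2.1 e14.1 e34.1]
  exact core' e12.2.2 e13.2.2 e14.2.2 e23.2.2 e34.2.2 e24.2.2 hd1 hd2

end Vale.Agent.P305.H677
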